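import Vale.Agent.P045.Main

/-! # P045: Ryser's conjecture for hypergraphs of small maximum degree -/

namespace Vale.Agent.Results.P045.BoundedDegree

open Vale.Agent.P045

universe u

theorem result (V : Type u) [DecidableEq V] (r : ℕ) (hr : 2 ≤ r) (part : V → Fin r)
    (H : Finset (Finset V)) (hH : IsPartite r part H) :
    (4 ≤ r → (∀ v, deg H v ≤ 3) → tau H ≤ (r - 1) * nu H) ∧
    (6 ≤ r → (∀ v, deg H v ≤ 4) → tau H ≤ (r - 1) * nu H) ∧
    (13 ≤ r → (∀ v, deg H v ≤ 5) → tau H ≤ (r - 1) * nu H) ∧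
    ((∀ e ∈ H, (H.filter (fun f => ¬ Disjoint e f)).card ≤ 2 * r - 2) →
      tau H ≤ (r - 1) * nu H) := by
  obtain ⟨s, rfl⟩ : ∃ s, r = s + 1 := ⟨r - 1, by omega⟩
  refine ⟨fun h hd => ?_, fun h hd => ?_, fun h hd => ?_, fun h => ?_⟩
  · refine ryser_degree (D := 3) hr (by norm_num) ?_ part H hH hd
    have : s + 1 - 1 = s := by omega
    rw [this]
    nlinarith
  · refine ryser_degree (D := 4) hr (by norm_num) ?_ part H hH hd
    have : s + 1 - 1 = s := by omega
    rw [this]
    nlinarith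
  · refine ryser_degree (D := 5) hr (by norm_num) ?_ part H hH hd
    have : s + 1 - 1 = s := by omega
    rw [this]
    nlinarith
  · exact ryser_line hr part H hH h

end Vale.Agent.Results.P045.BoundedDegree
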