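import Mathlib

/-!
P045 (Ryser): self-improvement.  (1) For every `r` the inequality holds for all hypergraphs iff it
holds asymptotically as `ν → ∞`.  (2)-(5) Intersecting case: `f(rs) ≥ f(r) f(s)`, so the set of
`r ≥ 2` for which it fails is closed under multiplication, and the conjecture for all large `r`
implies it for all `r ≥ 2`.
-/

set_option autoImplicit false

open Finset

namespace Vale.Agent.Results.P045.SelfImprovement

/-- `C` is a vertex cover of the `ι`-partite hypergraph `H`: the vertices of the part `i` are the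
pairs `(i, x)`, the edge `e : ι → X` consists of the vertices `(i, e i)`. -/
def Covers {ι X : Type} (H : Finset (ι → X)) (C : Finset (ι × X)) : Prop :=
  ∀ e ∈ H, ∃ i, (i, e i) ∈ C

/-- the covering number -/
noncomputable def tau {ι X : Type} (H : Finset (ι → X)) : ℕ :=
  sInf {n | ∃ C : Finset (ι × X), C.card = n ∧ Covers H C}

/-- the edges in `M` are pairwise disjoint -/
def Matching {ι X : Type} (M : Finset (ι → X)) : Prop :=
  ∀ e ∈ M, ∀ f ∈ M, e ≠ f → ∀ i, e i ≠ f i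

/-- the matching number -/
noncomputable def nu {ι X : Type} (H : Finset (ι → X)) : ℕ :=
  sSup {n | ∃ M ⊆ H, M.card = n ∧ Matching M}

/-- at least one edge and every two edges share a vertex -/
def Intersecting {ι X : Type} (H : Finset (ι → X)) : Prop :=
  H.Nonempty ∧ ∀ e ∈ H, ∀ f ∈ H, ∃ i, e i = f i

/-- Ryser's conjecture for `r` parts -/
def Ryser (r : ℕ) : Prop := ∀ (ι X : Type) [Fintype ι], Fintype.card ι = r →
  ∀ H : Finset (ι → X), (tau H : ℝ) ≤ (r - 1) * nu H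

/-- the asymptotic form for `r` parts: `τ ≤ (r - 1 + o(1)) ν` as `ν → ∞` -/
def RyserAsymp (r : ℕ) : Prop := ∀ ε : ℝ, 0 < ε → ∃ N : ℕ, ∀ (ι X : Type) [Fintype ι],
  Fintype.card ι = r → ∀ H : Finset (ι → X), N ≤ nu H → (tau H : ℝ) ≤ (r - 1 + ε) * nu H

/-- the intersecting case for `r` parts -/
def RyserInt (r : ℕ) : Prop := ∀ (ι X : Type) [Fintype ι], Fintype.card ι = r →
  ∀ H : Finset (ι → X), Intersecting H → tau H ≤ r - 1

/-- the largest covering number of an intersecting `r`-partite hypergraph -/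
noncomputable def maxTau (r : ℕ) : ℕ := sSup {t | ∃ (ι X : Type) (_ : Fintype ι)
  (H : Finset (ι → X)), Fintype.card ι = r ∧ Intersecting H ∧ tau H = t}

theorem tau_le {ι X : Type} {H : Finset (ι → X)} {C : Finset (ι × X)} (h : Covers H C) :
    tau H ≤ C.card := Nat.sInf_le ⟨C, rfl, h⟩

theorem exists_cover {ι X : Type} [Fintype ι] [Nonempty ι] (H : Finset (ι → X)) :
    ∃ C : Finset (ι × X), Covers H C := by
  classical
  refine ⟨H.biUnion fun e => univ.image fun i => (i, e i), fun e he => ?_⟩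
  obtain ⟨i⟩ := (inferInstance : Nonempty ι)
  exact ⟨i, mem_biUnion.2 ⟨e, he, mem_image.2 ⟨i, mem_univ _, rfl⟩⟩⟩

theorem le_tau {ι X : Type} [Fintype ι] [Nonempty ι] {H : Finset (ι → X)} {a : ℕ}
    (h : ∀ C : Finset (ι × X), Covers H C → a ≤ C.card) : a ≤ tau H := by
  obtain ⟨C, hC⟩ := exists_cover H
  refine le_csInf ⟨_, C, rfl, hC⟩ ?_
  rintro n ⟨D, rfl, hD⟩
  exact h D hD

theorem le_nu {ι X : Type} {H M : Finset (ι → X)} (h : M ⊆ H) (hM : Matching M) :
    M.card ≤ nu H := by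
  refine le_csSup ⟨H.card, ?_⟩ ⟨M, h, rfl, hM⟩
  rintro n ⟨D, hD, rfl, -⟩
  exact card_le_card hD

theorem nu_le {ι X : Type} {H : Finset (ι → X)} {b : ℕ}
    (h : ∀ M ⊆ H, Matching M → M.card ≤ b) : nu H ≤ b := by
  refine csSup_le ⟨0, ∅, empty_subset _, rfl, fun e he => by simp at he⟩ ?_
  rintro n ⟨D, hD, rfl, hM⟩
  exact h D hD hM

/-! ### Substitution -/

open scoped Classical in
/-- substitute a copy of `K` for every vertex of `H` -/
noncomputable def comp {ι κ X Y : Type} [Fintype ι] (H : Finset (ι → X)) (K : Finset (κ → Y)) :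
    Finset (ι × κ → X × Y) :=
  (H ×ˢ Fintype.piFinset fun _ : ι => K).image fun q p => (q.1 p.1, q.2 p.1 p.2)

theorem comp_int {ι κ X Y : Type} [Fintype ι] {H : Finset (ι → X)} {K : Finset (κ → Y)}
    (hH : Intersecting H) (hK : Intersecting K) : Intersecting (comp H K) := by
  classical
  obtain ⟨⟨e, he⟩, hH2⟩ := hH
  obtain ⟨⟨f, hf⟩, hK2⟩ := hK
  refine ⟨⟨_, mem_image.2 ⟨(e, fun _ => f), mem_product.2 ⟨he, Fintype.mem_piFinset.2 fun _ => hf⟩,
    rfl⟩⟩, ?_⟩
  intro u hu v hv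
  obtain ⟨⟨e1, g1⟩, h1, rfl⟩ := mem_image.1 hu
  obtain ⟨⟨e2, g2⟩, h2, rfl⟩ := mem_image.1 hv
  obtain ⟨h1a, h1b⟩ := mem_product.1 h1
  obtain ⟨h2a, h2b⟩ := mem_product.1 h2
  obtain ⟨i, hi⟩ := hH2 e1 h1a e2 h2a
  obtain ⟨j, hj⟩ := hK2 (g1 i) (Fintype.mem_piFinset.1 h1b i) (g2 i) (Fintype.mem_piFinset.1 h2b i)
  exact ⟨(i, j), Prod.ext hi hj⟩

theorem comp_cover {ι κ X Y : Type} [Fintype ι] {H : Finset (ι → X)} {K : Finset (κ → Y)}
    (hK0 : K.Nonempty) {a b : ℕ} (ha : ∀ C : Finset (ι × X), Covers H C → a ≤ C.card)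
    (hb : ∀ C : Finset (κ × Y), Covers K C → b ≤ C.card)
    (C : Finset ((ι × κ) × (X × Y))) (hC : Covers (comp H K) C) : a * b ≤ C.card := by
  classical
  let φ : (ι × κ) × (X × Y) → ι × X := fun p => (p.1.1, p.2.1)
  let L : ι × X → Finset (κ × Y) := fun v =>
    (C.filter fun p => φ p = v).image fun p => (p.1.2, p.2.2)
  let D : Finset (ι × X) := (C.image φ).filter fun v => Covers K (L v)
  have hD : Covers H D := by
    intro e he
    by_contra hcon
    push Not at hcon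
    have h1 : ∀ i, ∃ g ∈ K, ∀ j, (j, g j) ∉ L (i, e i) := by
      intro i
      have h2 : ¬ Covers K (L (i, e i)) := by
        intro h3
        by_cases h4 : (i, e i) ∈ C.image φ
        · exact hcon i (mem_filter.2 ⟨h4, h3⟩)
        · obtain ⟨f, hf⟩ := hK0
          obtain ⟨j, hj⟩ := h3 f hf
          obtain ⟨p, hp, -⟩ := mem_image.1 hj
          obtain ⟨hp1, hp2⟩ := mem_filter.1 hp
          exact h4 (mem_image.2 ⟨p, hp1, hp2⟩)
      unfold Covers at h2
      push Not at h2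
      exact h2
    choose g hg1 hg2 using h1
    obtain ⟨⟨i, j⟩, hij⟩ := hC (fun p => (e p.1, g p.1 p.2))
      (mem_image.2 ⟨(e, g), mem_product.2 ⟨he, Fintype.mem_piFinset.2 hg1⟩, rfl⟩)
    exact hg2 i j (mem_image.2 ⟨((i, j), (e i, g i j)), mem_filter.2 ⟨hij, rfl⟩, rfl⟩)
  calc a * b ≤ D.card * b := Nat.mul_le_mul_right _ (ha D hD)
    _ = ∑ v ∈ D, b := by rw [sum_const, smul_eq_mul]
    _ ≤ ∑ v ∈ D, (C.filter fun p => φ p = v).card :=
        sum_le_sum fun v hv => (hb _ (mem_filter.1 hv).2).trans card_image_le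
    _ = (C.filter fun p => φ p ∈ D).card := sum_card_fiberwise_eq_card_filter _ _ _
    _ ≤ C.card := card_le_card (filter_subset _ _)

theorem int_le {ι X : Type} [Fintype ι] {H : Finset (ι → X)} (hH : Intersecting H) :
    tau H ≤ Fintype.card ι := by
  classical
  obtain ⟨⟨e, he⟩, hH2⟩ := hH
  refine (tau_le (C := univ.image fun i => (i, e i)) ?_).trans (card_image_le.trans (by simp))
  intro f hf
  obtain ⟨i, hi⟩ := hH2 e he f hf
  exact ⟨i, mem_image.2 ⟨i, mem_univ _, by rw [hi]⟩⟩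

theorem tau_comp {ι κ X Y : Type} [Fintype ι] [Fintype κ] [Nonempty ι] [Nonempty κ]
    {H : Finset (ι → X)} {K : Finset (κ → Y)} (hK0 : K.Nonempty) :
    tau H * tau K ≤ tau (comp H K) :=
  le_tau fun C hC => comp_cover hK0 (fun _ h => tau_le h) (fun _ h => tau_le h) C hC

theorem bdd (r : ℕ) : BddAbove {t | ∃ (ι X : Type) (_ : Fintype ι)
    (H : Finset (ι → X)), Fintype.card ι = r ∧ Intersecting H ∧ tau H = t} := by
  refine ⟨r, ?_⟩
  rintro t ⟨ι, X, _, H, rfl, hH, rfl⟩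
  exact int_le hH

theorem ne (r : ℕ) (hr : 1 ≤ r) : ({t | ∃ (ι X : Type) (_ : Fintype ι)
    (H : Finset (ι → X)), Fintype.card ι = r ∧ Intersecting H ∧ tau H = t}).Nonempty :=
  ⟨_, Fin r, Unit, inferInstance, {fun _ => ()}, Fintype.card_fin r,
    ⟨singleton_nonempty _, fun _ _ _ _ => ⟨⟨0, hr⟩, rfl⟩⟩, rfl⟩

theorem maxTau_le (r : ℕ) (hr : 1 ≤ r) : maxTau r ≤ r := by
  refine csSup_le (ne r hr) ?_
  rintro t ⟨ι, X, _, H, rfl, hH, rfl⟩
  exact int_le hH

theorem maxTau_mul (r s : ℕ) (hr : 1 ≤ r) (hs : 1 ≤ s) : maxTau r * maxTau s ≤ maxTau (r * s) := by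
  obtain ⟨ι, X, _, H, hι, hH, h1⟩ := Nat.sSup_mem (ne r hr) (bdd r)
  obtain ⟨κ, Y, _, K, hκ, hK, h2⟩ := Nat.sSup_mem (ne s hs) (bdd s)
  have : Nonempty ι := Fintype.card_pos_iff.1 (by omega)
  have : Nonempty κ := Fintype.card_pos_iff.1 (by omega)
  have h3 := tau_comp (H := H) (K := K) hK.1
  rw [h1, h2] at h3
  exact h3.trans (le_csSup (bdd _) ⟨ι × κ, X × Y, inferInstance, comp H K,
    by rw [Fintype.card_prod, hι, hκ], comp_int hH hK, rfl⟩)

theorem int_iff (r : ℕ) (hr : 1 ≤ r) : RyserInt r ↔ maxTau r ≤ r - 1 := by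
  constructor
  · intro h
    refine csSup_le (ne r hr) ?_
    rintro t ⟨ι, X, _, H, hι, hH, rfl⟩
    exact h ι X hι H hH
  · intro h ι X _ hι H hH
    exact (le_csSup (bdd r) ⟨ι, X, inferInstance, H, hι, hH, rfl⟩).trans h

theorem int_mul (r s : ℕ) (hr : 1 ≤ r) (hs : 1 ≤ s) (h : RyserInt (r * s)) :
    RyserInt r ∨ RyserInt s := by
  rw [int_iff _ (Nat.mul_pos hr hs)] at h
  rw [int_iff _ hr, int_iff _ hs]
  by_contra hcon
  push Not at hcon
  obtain ⟨h1, h2⟩ := hcon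
  have h3 : r ≤ maxTau r := by omega
  have h4 : s ≤ maxTau s := by omega
  have h5 := maxTau_mul r s hr hs
  have h6 : r * s ≤ maxTau r * maxTau s := Nat.mul_le_mul h3 h4
  have h7 : 0 < r * s := Nat.mul_pos hr hs
  omega

theorem int_pow (r : ℕ) (hr : 2 ≤ r) (k : ℕ) (h : RyserInt (r ^ (k + 1))) : RyserInt r := by
  induction k with
  | zero => simpa using h
  | succ k ih =>
    rw [pow_succ] at h
    rcases int_mul _ _ (Nat.pos_of_ne_zero (by positivity)) (by omega) h with h | h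
    · exact ih h
    · exact h

/-! ### Disjoint copies -/

open scoped Classical in
/-- `k` disjoint copies of `H` -/
noncomputable def copies {ι X : Type} (k : ℕ) (H : Finset (ι → X)) : Finset (ι → X × Fin k) :=
  (H ×ˢ (univ : Finset (Fin k))).image fun q i => (q.1 i, q.2)

theorem mem_copies {ι X : Type} {k : ℕ} {H : Finset (ι → X)} {e : ι → X} (he : e ∈ H)
    (c : Fin k) : (fun i => (e i, c)) ∈ copies k H := by
  classical
  exact mem_image.2 ⟨(e, c), mem_product.2 ⟨he, mem_univ _⟩, rfl⟩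

theorem copies_nu_le {ι X : Type} [Nonempty ι] (k : ℕ) (H : Finset (ι → X)) :
    nu (copies k H) ≤ k * nu H := by
  classical
  refine nu_le fun M hM hMm => ?_
  obtain ⟨i0⟩ := (inferInstance : Nonempty ι)
  have h1 : ∀ c : Fin k, (M.filter fun e => (e i0).2 = c).card ≤ nu H := by
    intro c
    have h2 : ∀ e ∈ M.filter (fun e => (e i0).2 = c), ∃ e' ∈ H, e = fun i => (e' i, c) := by
      intro e he
      obtain ⟨he1, he2⟩ := mem_filter.1 he
      obtain ⟨⟨e', c'⟩, h3, rfl⟩ := mem_image.1 (hM he1)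
      simp only at he2
      subst he2
      exact ⟨e', (mem_product.1 h3).1, rfl⟩
    have h4 : Set.InjOn (fun (e : ι → X × Fin k) (i : ι) => (e i).1)
        (M.filter fun e => (e i0).2 = c : Finset (ι → X × Fin k)) := by
      intro e he f hf hef
      obtain ⟨e', -, rfl⟩ := h2 e he
      obtain ⟨f', -, rfl⟩ := h2 f hf
      simp only at hef
      funext i
      exact Prod.ext (congrFun hef i) rfl
    rw [← card_image_of_injOn h4]
    refine le_nu ?_ ?_
    · intro e he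
      obtain ⟨f, hf, rfl⟩ := mem_image.1 he
      obtain ⟨e', he', rfl⟩ := h2 f hf
      exact he'
    · intro e he f hf hef i
      obtain ⟨e1, he1, rfl⟩ := mem_image.1 he
      obtain ⟨f1, hf1, rfl⟩ := mem_image.1 hf
      have h5 : e1 ≠ f1 := fun h => hef (by rw [h])
      have h6 := hMm e1 (mem_filter.1 he1).1 f1 (mem_filter.1 hf1).1 h5 i
      obtain ⟨e', -, rfl⟩ := h2 e1 he1
      obtain ⟨f', -, rfl⟩ := h2 f1 hf1
      intro h7
      exact h6 (Prod.ext h7 rfl)
  calc M.card = ∑ c : Fin k, (M.filter fun e => (e i0).2 = c).card :=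
        card_eq_sum_card_fiberwise fun _ _ => mem_univ _
    _ ≤ ∑ _c : Fin k, nu H := sum_le_sum fun c _ => h1 c
    _ = k * nu H := by simp

theorem copies_nu_ge {ι X : Type} [Nonempty ι] (k : ℕ) (H : Finset (ι → X)) (hH : H.Nonempty) :
    k ≤ nu (copies k H) := by
  classical
  obtain ⟨e, he⟩ := hH
  obtain ⟨i0⟩ := (inferInstance : Nonempty ι)
  let M : Finset (ι → X × Fin k) := univ.image fun c : Fin k => fun i => (e i, c)
  have hM : M.card = k := by
    rw [card_image_of_injective, card_univ, Fintype.card_fin]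
    intro c d hcd
    exact congrArg Prod.snd (congrFun hcd i0)
  refine hM.symm.le.trans (le_nu ?_ ?_)
  · intro f hf
    obtain ⟨c, -, rfl⟩ := mem_image.1 hf
    exact mem_copies he c
  · intro f hf g hg hfg i h
    obtain ⟨c, -, rfl⟩ := mem_image.1 hf
    obtain ⟨d, -, rfl⟩ := mem_image.1 hg
    exact hfg (by rw [show c = d from congrArg Prod.snd h])

theorem copies_tau {ι X : Type} [Fintype ι] [Nonempty ι] (k : ℕ) (H : Finset (ι → X)) :
    k * tau H ≤ tau (copies k H) := by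
  classical
  refine le_tau fun C hC => ?_
  have h1 : ∀ c : Fin k, tau H ≤ (C.filter fun p => p.2.2 = c).card := by
    intro c
    refine (tau_le (C := (C.filter fun p => p.2.2 = c).image fun p => (p.1, p.2.1)) ?_).trans
      card_image_le
    intro e he
    obtain ⟨i, hi⟩ := hC (fun i => (e i, c)) (mem_copies he c)
    exact ⟨i, mem_image.2 ⟨(i, (e i, c)), mem_filter.2 ⟨hi, rfl⟩, rfl⟩⟩
  calc k * tau H = ∑ _c : Fin k, tau H := by simp
    _ ≤ ∑ c : Fin k, (C.filter fun p => p.2.2 = c).card := sum_le_sum fun c _ => h1 c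
    _ = C.card := (card_eq_sum_card_fiberwise fun _ _ => mem_univ _).symm

theorem asymp (r : ℕ) (hr : 2 ≤ r) (h : RyserAsymp r) : Ryser r := by
  classical
  intro ι X _ hι H
  have : Nonempty ι := Fintype.card_pos_iff.1 (by omega)
  have hr1 : (1 : ℝ) ≤ r := by exact_mod_cast (by omega : 1 ≤ r)
  rcases H.eq_empty_or_nonempty with hH | hH
  · have h1 : tau H ≤ 0 := tau_le (C := ∅) (by intro e he; simp [hH] at he)
    have h2 : tau H = 0 := by omega
    rw [h2, Nat.cast_zero]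
    exact mul_nonneg (by linarith) (Nat.cast_nonneg _)
  refine le_of_forall_pos_le_add fun δ hδ => ?_
  have hn : (0 : ℝ) < (nu H : ℝ) + 1 := by positivity
  obtain ⟨N, hN⟩ := h (δ / (nu H + 1)) (div_pos hδ hn)
  have h1 := hN ι (X × Fin (N + 1)) hι (copies (N + 1) H)
    ((Nat.le_succ N).trans (copies_nu_ge (N + 1) H hH))
  have h2 : ((N + 1 : ℕ) : ℝ) * tau H ≤ tau (copies (N + 1) H) := by
    exact_mod_cast copies_tau (N + 1) H
  have h3 : (nu (copies (N + 1) H) : ℝ) ≤ ((N + 1 : ℕ) : ℝ) * nu H := by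
    exact_mod_cast copies_nu_le (N + 1) H
  have h4 : (0 : ℝ) ≤ r - 1 + δ / (nu H + 1) := by
    have := (div_pos hδ hn).le
    linarith
  have h5 : ((N + 1 : ℕ) : ℝ) * tau H ≤
      ((N + 1 : ℕ) : ℝ) * ((r - 1 + δ / (nu H + 1)) * nu H) := by
    calc ((N + 1 : ℕ) : ℝ) * tau H ≤ (r - 1 + δ / (nu H + 1)) * nu (copies (N + 1) H) :=
          h2.trans h1
      _ ≤ (r - 1 + δ / (nu H + 1)) * (((N + 1 : ℕ) : ℝ) * nu H) :=
          mul_le_mul_of_nonneg_left h3 h4
      _ = _ := by ring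
  have h6 : (0 : ℝ) < ((N + 1 : ℕ) : ℝ) := by positivity
  have h7 := le_of_mul_le_mul_left h5 h6
  have h8 : δ / (nu H + 1) * nu H ≤ δ := by
    rw [div_mul_eq_mul_div, div_le_iff₀ hn]
    nlinarith
  nlinarith

/-- Self-improvement of Ryser's conjecture. -/
theorem result :
    (∀ r : ℕ, 2 ≤ r → (Ryser r ↔ RyserAsymp r)) ∧
    (∀ r s : ℕ, 1 ≤ r → 1 ≤ s → maxTau r * maxTau s ≤ maxTau (r * s)) ∧
    (∀ r s : ℕ, 1 ≤ r → 1 ≤ s → RyserInt (r * s) → RyserInt r ∨ RyserInt s) ∧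
    (∀ r : ℕ, 2 ≤ r → (RyserInt r ↔ ∃ k : ℕ, 1 ≤ k ∧ RyserInt (r ^ k))) ∧
    ((∀ r : ℕ, 2 ≤ r → RyserInt r) ↔ ∃ R : ℕ, ∀ r : ℕ, R ≤ r → RyserInt r) := by
  refine ⟨fun r hr => ⟨fun h ε hε => ⟨0, fun ι X _ hι H _ => ?_⟩, asymp r hr⟩, maxTau_mul, int_mul,
    fun r hr => ⟨fun h => ⟨1, le_rfl, by rwa [pow_one]⟩, ?_⟩, fun h => ⟨2, h⟩, ?_⟩
  · refine (h ι X hι H).trans (mul_le_mul_of_nonneg_right (by linarith) (Nat.cast_nonneg _))
  · rintro ⟨k, hk, h⟩
    obtain ⟨k, rfl⟩ := Nat.exists_eq_add_of_le' hk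
    exact int_pow r hr k h
  · rintro ⟨R, hR⟩ r hr
    refine int_pow r hr R (hR _ ?_)
    exact (Nat.lt_pow_self (by omega : 1 < r)).le.trans (Nat.pow_le_pow_right (by omega) (by omega))

end Vale.Agent.Results.P045.SelfImprovement
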